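import Mathlib

/-!
# Row 211 / B: reindexing a finite cover over a `Finset` by `Fin k` (helper8)
-/

set_option autoImplicit false

namespace Crest.Agent.Helper8

/-- Reindex a cover indexed by a finset `I` by `Fin I.card` (shape of the S0326 conclusion). -/
theorem reindex_cover {ι : Type} (I : Finset ι)
    (c a b g : ι → EuclideanSpace ℝ (Fin 2)) (L h T : ℝ)
    (D : Set (EuclideanSpace ℝ (Fin 2)))
    (V : EuclideanSpace ℝ (Fin 2) → EuclideanSpace ℝ (Fin 2))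
    (h1 : ∀ i ∈ I, a i ≠ 0 ∧ ‖b i‖ = ‖a i‖ ∧ inner ℝ (a i) (b i) = 0)
    (h2 : ∀ p ∈ D, ∀ s : ℝ, |s| ≤ L → ∃ i ∈ I, ∃ x ∈ Set.Icc (0 : ℝ) 1, ∃ y ∈ Set.Icc (0 : ℝ) 1,
      p + s • V p = c i + x • a i + y • b i + s • g i)
    (h3 : ∑ i ∈ I, ‖a i‖ ^ 2 / Real.sqrt (1 + (g i 0) ^ 2 + h ^ 2 * (g i 1) ^ 2) ≤ T) :
    ∃ (k : ℕ) (c' a' b' g' : Fin k → EuclideanSpace ℝ (Fin 2)),
      (∀ i, a' i ≠ 0 ∧ ‖b' i‖ = ‖a' i‖ ∧ inner ℝ (a' i) (b' i) = 0) ∧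
      {z : ℝ × EuclideanSpace ℝ (Fin 2) | ∃ p ∈ D, abs z.1 ≤ L ∧ z.2 = p + z.1 • V p} ⊆
        ⋃ i, {z : ℝ × EuclideanSpace ℝ (Fin 2) | ∃ x ∈ Set.Icc (0 : ℝ) 1, ∃ y ∈ Set.Icc (0 : ℝ) 1,
          z.2 = c' i + x • a' i + y • b' i + z.1 • g' i} ∧
      ∑ i, ‖a' i‖ ^ 2 / Real.sqrt (1 + (g' i 0) ^ 2 + h ^ 2 * (g' i 1) ^ 2) ≤ T := by
  classical
  let e : ↥I ≃ Fin I.card := I.equivFin
  refine ⟨I.card, fun j => c (e.symm j), fun j => a (e.symm j), fun j => b (e.symm j),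
    fun j => g (e.symm j), ?_, ?_, ?_⟩
  · intro j
    exact h1 _ (e.symm j).2
  · rintro ⟨s, ξ⟩ ⟨p, hp, hs, hξ⟩
    simp only at hs hξ
    obtain ⟨i, hi, x, hx, y, hy, hxy⟩ := h2 p hp s hs
    simp only [Set.mem_iUnion, Set.mem_ofPred_eq]
    refine ⟨e ⟨i, hi⟩, x, hx, y, hy, ?_⟩
    simp only [Equiv.symm_apply_apply]
    rw [hξ]
    exact hxy
  · have hsum : ∑ j : Fin I.card, ‖a (e.symm j)‖ ^ 2 /
        Real.sqrt (1 + (g (e.symm j) 0) ^ 2 + h ^ 2 * (g (e.symm j) 1) ^ 2) =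
        ∑ i ∈ I, ‖a i‖ ^ 2 / Real.sqrt (1 + (g i 0) ^ 2 + h ^ 2 * (g i 1) ^ 2) := by
      rw [← Finset.sum_coe_sort I
        (fun i => ‖a i‖ ^ 2 / Real.sqrt (1 + (g i 0) ^ 2 + h ^ 2 * (g i 1) ^ 2))]
      exact Equiv.sum_comp e.symm
        (fun i : ↥I => ‖a i‖ ^ 2 / Real.sqrt (1 + (g i 0) ^ 2 + h ^ 2 * (g i 1) ^ 2))
    rw [hsum]
    exact h3

end Crest.Agent.Helper8
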