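import Mathlib
import Crest.Agent.Helper7.S0423Defs

/-!
S0423, package D (remainder): the needle `needle a b t = min 1 (exp (-(t+b)/a))`, `a > 0`,
is in the class `IsSurv`.
-/

set_option autoImplicit false

namespace Crest.Agent.Helper8

open MeasureTheory Set
open Crest.Agent.Helper7

theorem continuous_needle (a b : ℝ) : Continuous (needle a b) := by
  unfold needle
  fun_prop

theorem needle_pos (a b t : ℝ) : 0 < needle a b t :=
  lt_min one_pos (Real.exp_pos _)

theorem needle_le_one (a b t : ℝ) : needle a b t ≤ 1 := min_le_left _ _

theorem needle_le_exp (a b t : ℝ) : needle a b t ≤ Real.exp (-(t + b) / a) := min_le_right _ _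

theorem antitone_needle (a b : ℝ) (ha : 0 < a) : Antitone (needle a b) := by
  intro s t hst
  unfold needle
  refine min_le_min le_rfl (Real.exp_le_exp.mpr ?_)
  exact div_le_div_of_nonneg_right (by linarith) ha.le

theorem log_needle (a b t : ℝ) : Real.log (needle a b t) = min 0 (-(t + b) / a) := by
  unfold needle
  by_cases h : 0 ≤ -(t + b) / a
  · have h1 : (1 : ℝ) ≤ Real.exp (-(t + b) / a) := Real.one_le_exp h
    rw [min_eq_left h1, min_eq_left h, Real.log_one]
  · have h := not_le.mp h
    have h1 : Real.exp (-(t + b) / a) ≤ 1 := by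
      have := Real.exp_le_exp.mpr h.le
      simpa using this
    rw [min_eq_right h1, min_eq_right h.le, Real.log_exp]

theorem logconc_needle (a b : ℝ) :
    ConcaveOn ℝ Set.univ (fun t => Real.log (needle a b t)) := by
  have h0 : ConcaveOn ℝ Set.univ (fun _ : ℝ => (0 : ℝ)) := concaveOn_const 0 convex_univ
  have h1 : ConcaveOn ℝ Set.univ (fun t : ℝ => -(t + b) / a) := by
    have : (fun t : ℝ => -(t + b) / a) = fun t : ℝ => (-(1 / a)) * t + (-(b / a)) := by
      funext t; ring
    rw [this]
    exact ⟨convex_univ, fun x _ y _ u v _ _ huv => by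
      simp only [smul_eq_mul]
      have : u * (-(1 / a) * x + -(b / a)) + v * (-(1 / a) * y + -(b / a))
          = -(1 / a) * (u * x + v * y) + (u + v) * (-(b / a)) := by ring
      rw [this, huv, one_mul]⟩
  have h := h0.inf h1
  have hfun : (fun t => Real.log (needle a b t)) = (fun _ : ℝ => (0 : ℝ)) ⊓ fun t : ℝ => -(t + b) / a := by
    funext t
    rw [log_needle]
    rfl
  rw [hfun]
  exact h

theorem measurable_ind0' : Measurable ind0 := by
  unfold ind0
  exact Measurable.ite measurableSet_Iio measurable_const measurable_const

theorem integrable_needle_sub_ind0 (a b : ℝ) (ha : 0 < a) :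
    Integrable (fun t => needle a b t - ind0 t) := by
  -- dominating function
  have hI1 : Integrable (Set.indicator (Icc (-|b|) |b|) (fun _ : ℝ => (1 : ℝ))) := by
    have : IntegrableOn (fun _ : ℝ => (1 : ℝ)) (Icc (-|b|) |b|) :=
      (continuous_const : Continuous fun _ : ℝ => (1 : ℝ)).integrableOn_Icc
    exact this.integrable_indicator measurableSet_Icc
  have hexp : IntegrableOn (fun t : ℝ => Real.exp (-(t + b) / a)) (Ici 0) := by
    have h1 : IntegrableOn (fun t : ℝ => Real.exp (-(1 / a) * t)) (Ioi 0) :=
      exp_neg_integrableOn_Ioi 0 (by positivity)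
    have h2 : IntegrableOn (fun t : ℝ => Real.exp (-(b / a)) * Real.exp (-(1 / a) * t)) (Ioi 0) :=
      h1.const_mul _
    rw [integrableOn_Ici_iff_integrableOn_Ioi]
    refine h2.congr_fun (fun t _ => ?_) measurableSet_Ioi
    show Real.exp (-(b / a)) * Real.exp (-(1 / a) * t) = Real.exp (-(t + b) / a)
    rw [← Real.exp_add]
    congr 1
    ring
  have hI2 : Integrable (Set.indicator (Ici (0 : ℝ)) (fun t : ℝ => Real.exp (-(t + b) / a))) :=
    hexp.integrable_indicator measurableSet_Ici
  have hmeas : AEStronglyMeasurable (fun t => needle a b t - ind0 t) volume :=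
    ((continuous_needle a b).measurable.sub measurable_ind0').aestronglyMeasurable
  refine (hI1.add hI2).mono' hmeas (Filter.Eventually.of_forall fun t => ?_)
  simp only [Pi.add_apply, Real.norm_eq_abs]
  by_cases ht : t < 0
  · -- ind0 = 1
    have hind : ind0 t = 1 := by simp [ind0, ht]
    have hI2z : Set.indicator (Ici (0 : ℝ)) (fun t : ℝ => Real.exp (-(t + b) / a)) t = 0 :=
      Set.indicator_of_notMem (by simp [ht]) _
    rw [hind, hI2z, add_zero]
    by_cases htb : t ≤ -b
    · -- needle = 1
      have hn : needle a b t = 1 := by
        unfold needle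
        refine min_eq_left (Real.one_le_exp ?_)
        exact div_nonneg (by linarith) ha.le
      rw [hn, sub_self, abs_zero]
      exact Set.indicator_nonneg (fun _ _ => zero_le_one) _
    · have htb := not_le.mp htb
      have hmem : t ∈ Icc (-|b|) |b| := by
        constructor
        · have := neg_abs_le b
          have h2 : -|b| ≤ -b := by
            have := le_abs_self b
            linarith
          linarith
        · have := abs_nonneg b
          linarith
      rw [Set.indicator_of_mem hmem]
      have h1 := needle_pos a b t
      have h2 := needle_le_one a b t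
      rw [abs_le]
      constructor <;> linarith
  · have ht := not_lt.mp ht
    have hind : ind0 t = 0 := by simp [ind0, not_lt.mpr ht]
    have hI2v : Set.indicator (Ici (0 : ℝ)) (fun t : ℝ => Real.exp (-(t + b) / a)) t
        = Real.exp (-(t + b) / a) := Set.indicator_of_mem (by simpa using ht) _
    rw [hind, hI2v, sub_zero, abs_of_pos (needle_pos a b t)]
    have h0 : 0 ≤ Set.indicator (Icc (-|b|) |b|) (fun _ : ℝ => (1 : ℝ)) t :=
      Set.indicator_nonneg (fun _ _ => zero_le_one) _
    have := needle_le_exp a b t
    linarith

/-- Package D: the needle is in the class `IsSurv`. -/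
theorem needle_isSurv (a b : ℝ) (ha : 0 < a) : IsSurv (needle a b) where
  cont := continuous_needle a b
  pos := needle_pos a b
  le_one := needle_le_one a b
  anti := antitone_needle a b ha
  logconc := logconc_needle a b
  integrable := integrable_needle_sub_ind0 a b ha

end Crest.Agent.Helper8
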